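import Vale.Agent.Lib.P243Core

open MeasureTheory Set
open scoped ENNReal Pointwise

namespace Vale.Agent.P243s

/-- Upper Hermite–Hadamard on a segment for the density `1 + 2 h`. -/
lemma tent {h : ℝ → ℝ} {a c p q : ℝ} (hac : a ≤ c) (hp : 0 ≤ p) (hq : 0 ≤ q)
    (hconv : ConvexOn ℝ (Icc a c) h) (ha : h a ≤ p) (hc : h c ≤ q) :
    ∫⁻ z in Icc a c, ENNReal.ofReal (1 + 2 * h z) ≤ ENNReal.ofReal ((c - a) * (1 + p + q)) := by
  rcases hac.eq_or_lt with rfl | hlt
  · simp
  have hpos : 0 < c - a := by linarith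
  let ψ : ℝ → ℝ := fun z => 1 + 2 * (((c - z) * p + (z - a) * q) / (c - a))
  have hψc : Continuous ψ := by
    simp only [ψ]; fun_prop (disch := exact hpos.ne')
  have hψ0 : ∀ z ∈ Icc a c, 0 ≤ ψ z := by
    intro z hz
    have h1 : 0 ≤ c - z := by linarith [hz.2]
    have h2 : 0 ≤ z - a := by linarith [hz.1]
    simp only [ψ]; positivity
  have hle : ∀ z ∈ Icc a c, h z ≤ ((c - z) * p + (z - a) * q) / (c - a) := by
    intro z hz
    have h1 : 0 ≤ (c - z) / (c - a) := div_nonneg (by linarith [hz.2]) hpos.le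
    have h2 : 0 ≤ (z - a) / (c - a) := div_nonneg (by linarith [hz.1]) hpos.le
    have h3 : (c - z) / (c - a) + (z - a) / (c - a) = 1 := by field_simp; ring
    have h4 := hconv.2 (left_mem_Icc.2 hac) (right_mem_Icc.2 hac) h1 h2 h3
    have h5 : ((c - z) / (c - a)) • a + ((z - a) / (c - a)) • c = z := by
      simp only [smul_eq_mul]; field_simp; ring
    rw [h5] at h4
    simp only [smul_eq_mul] at h4
    have h6 := mul_le_mul_of_nonneg_left ha h1
    have h7 := mul_le_mul_of_nonneg_left hc h2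
    have h8 : ((c - z) * p + (z - a) * q) / (c - a)
        = (c - z) / (c - a) * p + (z - a) / (c - a) * q := by field_simp
    rw [h8]
    linarith
  have hI : ∫ z in a..c, ψ z = (c - a) * (1 + p + q) := by
    let G : ℝ → ℝ := fun z => z + (-(c - z) ^ 2 * p + (z - a) ^ 2 * q) / (c - a)
    have hG : ∀ z ∈ uIcc a c, HasDerivAt G (ψ z) z := by
      intro z _
      have h1 := hasDerivAt_id z
      have h2 : HasDerivAt (fun z : ℝ => c - z) (-1) z := by
        simpa using (hasDerivAt_id z).const_sub c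
      have h3 : HasDerivAt (fun z : ℝ => z - a) 1 z := by
        simpa using (hasDerivAt_id z).sub_const a
      have h4 := ((h2.pow 2).neg.mul_const p).add ((h3.pow 2).mul_const q)
      have h5 := h1.add (h4.div_const (c - a))
      refine HasDerivAt.congr_deriv (f := G) h5 ?_
      simp only [ψ]
      norm_num
      field_simp
    rw [intervalIntegral.integral_eq_sub_of_hasDerivAt hG (hψc.intervalIntegrable _ _)]
    simp only [G]
    field_simp
    ring
  calc ∫⁻ z in Icc a c, ENNReal.ofReal (1 + 2 * h z)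
      ≤ ∫⁻ z in Icc a c, ENNReal.ofReal (ψ z) := by
        refine setLIntegral_mono' measurableSet_Icc fun z hz => ENNReal.ofReal_le_ofReal ?_
        have := hle z hz
        simp only [ψ]
        linarith
    _ = ENNReal.ofReal (∫ z in a..c, ψ z) := by
        rw [intervalIntegral.integral_of_le hac, ← integral_Icc_eq_integral_Ioc]
        exact (ofReal_integral_eq_lintegral_ofReal (hψc.integrableOn_Icc)
          ((ae_restrict_iff' measurableSet_Icc).2 (Filter.Eventually.of_forall hψ0))).symm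
    _ = _ := by rw [hI]

variable {K : Set ((ℝ × ℝ) × ℝ)}

/-- The gauge along a fibre is convex. -/
lemma convexOn_gauge_fiber (hc : Convex ℝ K) (h0 : K ∈ nhds (0 : (ℝ × ℝ) × ℝ)) (y : ℝ × ℝ) :
    ConvexOn ℝ univ (fun z : ℝ => gauge K (y, z)) := by
  refine ⟨convex_univ, ?_⟩
  intro z₁ _ z₂ _ A B hA hB hAB
  have habs : Absorbent ℝ K := absorbent_nhds_zero h0
  have e : ((y, A • z₁ + B • z₂) : (ℝ × ℝ) × ℝ) = A • (y, z₁) + B • (y, z₂) := by
    simp only [Prod.smul_mk, Prod.mk_add_mk, ← add_smul, hAB, one_smul]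
  simp only [e]
  refine (gauge_add_le hc habs _ _).trans ?_
  rw [gauge_smul_of_nonneg hA, gauge_smul_of_nonneg hB]

/-- Fibre mass. -/
theorem fiber_mass (hK : IsCompact K) (hc : Convex ℝ K) (h0 : K ∈ nhds (0 : (ℝ × ℝ) × ℝ))
    {y : ℝ × ℝ} (hy : y ∈ Prod.fst '' K) :
    ∃ τ : ℝ, 0 ≤ τ ∧ τ ≤ gauge (Prod.fst '' K) y ∧
      ∫⁻ z in Prod.mk y ⁻¹' K, ENNReal.ofReal (1 + 2 * gauge K (y, z)) ≤
        ENNReal.ofReal (Vale.Agent.P243.chord K y * (2 + τ)) := by
  have h0K : (0 : (ℝ × ℝ) × ℝ) ∈ K := mem_of_mem_nhds h0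
  have habs : Absorbent ℝ K := absorbent_nhds_zero h0
  set F := Prod.mk y ⁻¹' K with hF
  have hFc : IsCompact F := by
    have : F = Prod.snd '' (K ∩ Prod.fst ⁻¹' {y}) := by
      ext z
      simp only [hF, mem_preimage, mem_image, mem_inter_iff, mem_singleton_iff]
      constructor
      · intro hz; exact ⟨(y, z), ⟨hz, rfl⟩, rfl⟩
      · rintro ⟨⟨a, b⟩, ⟨h1, h2⟩, h3⟩
        simp only at h2 h3
        subst h2 h3; exact h1
    rw [this]
    exact (hK.inter_right (isClosed_singleton.preimage continuous_fst)).image continuous_snd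
  have hFne : F.Nonempty := by
    obtain ⟨p, hp, rfl⟩ := hy
    exact ⟨p.2, by simpa [hF] using hp⟩
  have hFconv : Convex ℝ F := Vale.Agent.P243.convex_fiber hc y
  have hFeq : F = Icc (sInf F) (sSup F) :=
    eq_Icc_of_connected_compact ⟨hFne, hFconv.isPreconnected⟩ hFc
  set a := sInf F with ha
  set b := sSup F with hb
  have hgc : Continuous (fun z : ℝ => gauge K (y, z)) :=
    (continuous_gauge hc h0).comp (by fun_prop)
  obtain ⟨z0, hz0, hmin⟩ := hFc.exists_isMinOn hFne hgc.continuousOn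
  have hz0I : z0 ∈ Icc a b := hFeq ▸ hz0
  have hab : a ≤ b := hz0I.1.trans hz0I.2
  have hchord : Vale.Agent.P243.chord K y = b - a := by
    unfold Vale.Agent.P243.chord
    rw [← hF, hFeq, Real.volume_Icc, ENNReal.toReal_ofReal (by linarith)]
  refine ⟨gauge K (y, z0), gauge_nonneg _, ?_, ?_⟩
  · -- the minimum of the gauge on the fibre is below the gauge of the shadow
    by_contra hcon
    push Not at hcon
    have hS0 : Prod.fst '' K ∈ nhds (0 : ℝ × ℝ) :=
      isOpenMap_fst.image_mem_nhds h0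
    obtain ⟨r, hr1, hr2⟩ := exists_between hcon
    obtain ⟨s, hs0, hsr, hmem⟩ :=
      exists_lt_of_gauge_lt (absorbent_nhds_zero (𝕜 := ℝ) hS0) hr1
    obtain ⟨y', ⟨w, hw, rfl⟩, hy'⟩ := hmem
    have hg1 : gauge K (y, z0) ≤ 1 := by
      exact gauge_le_one_of_mem hz0
    have hs1 : s ∈ Icc (0 : ℝ) 1 := ⟨hs0.le, by linarith⟩
    have hwK : s • w ∈ K := hc.smul_mem_of_zero_mem h0K hw hs1
    have hfib : (s • w).2 ∈ F := by
      have : (y, (s • w).2) = s • w := by
        ext <;> simp [← hy']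
      show (y, (s • w).2) ∈ K
      rw [this]; exact hwK
    have hm : gauge K (y, z0) ≤ gauge K (y, (s • w).2) := hmin hfib
    have e2 : (y, (s • w).2) = s • w := by
      ext <;> simp [← hy']
    rw [e2, gauge_smul_of_nonneg hs0.le] at hm
    have hw1 : gauge K w ≤ 1 := gauge_le_one_of_mem hw
    simp only [smul_eq_mul] at hm
    have : s * gauge K w ≤ s := by nlinarith
    linarith
  · -- tent bound on the two sides of the minimum
    have hconv := convexOn_gauge_fiber hc h0 y
    have hτ := gauge_nonneg (s := K) (y, z0)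
    have haF : a ∈ F := by rw [hFeq]; exact left_mem_Icc.2 hab
    have hbF : b ∈ F := by rw [hFeq]; exact right_mem_Icc.2 hab
    have h1 := tent (h := fun z => gauge K (y, z)) (a := a) (c := z0) (p := 1)
      (q := gauge K (y, z0)) hz0I.1 zero_le_one hτ (hconv.subset (subset_univ _) (convex_Icc _ _))
      (gauge_le_one_of_mem haF) le_rfl
    have h2 := tent (h := fun z => gauge K (y, z)) (a := z0) (c := b) (p := gauge K (y, z0))
      (q := 1) hz0I.2 hτ zero_le_one (hconv.subset (subset_univ _) (convex_Icc _ _))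
      le_rfl (gauge_le_one_of_mem hbF)
    have hun : F = Icc a z0 ∪ Icc z0 b := by
      rw [Icc_union_Icc_eq_Icc hz0I.1 hz0I.2]; exact hFeq
    rw [hun]
    refine (lintegral_union_le _ _ _).trans ?_
    refine (add_le_add h1 h2).trans ?_
    rw [← ENNReal.ofReal_add (mul_nonneg (by linarith [hz0I.1]) (by linarith))
      (mul_nonneg (by linarith [hz0I.2]) (by linarith))]
    apply ENNReal.ofReal_le_ofReal
    rw [hchord]
    nlinarith

end Vale.Agent.P243s
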