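import Mathlib

open MeasureTheory Set
open scoped ENNReal Pointwise

namespace Vale.Agent.P243s

/-- The layer bound: at height `t ∈ (0,1]` the set `{t ≤ gauge}` inside `K` has measure at least
`(1 - t^3) |K|`. -/
lemma layer_bound (K : Set (EuclideanSpace ℝ (Fin 3))) (hK : IsCompact K) (hc : Convex ℝ K)
    (h0 : K ∈ nhds (0 : EuclideanSpace ℝ (Fin 3))) {t : ℝ} (ht : 0 < t) (ht1 : t ≤ 1) :
    ENNReal.ofReal (1 - t ^ 3) * volume K ≤
      (volume.restrict K) {x | t ≤ gauge K x} := by
  have habs : Absorbent ℝ K := absorbent_nhds_zero h0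
  have h0K : (0 : EuclideanSpace ℝ (Fin 3)) ∈ K := mem_of_mem_nhds h0
  have hcont : Continuous (gauge K) := continuous_gauge hc h0
  have hmeas : MeasurableSet {x | t ≤ gauge K x} :=
    measurableSet_le measurable_const hcont.measurable
  have hVfin : volume K ≠ ∞ := hK.measure_lt_top.ne
  rw [Measure.restrict_apply hmeas]
  have hsub : K ⊆ ({x | t ≤ gauge K x} ∩ K) ∪ (t • K) := by
    intro x hx
    by_cases hxt : t ≤ gauge K x
    · exact Or.inl ⟨hxt, hx⟩
    · refine Or.inr ?_
      rw [not_le] at hxt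
      rw [Set.mem_smul_set_iff_inv_smul_mem₀ ht.ne']
      apply setOfPred_gauge_lt_one_subset_self hc h0K habs
      show gauge K (t⁻¹ • x) < 1
      rw [gauge_smul_of_nonneg (inv_nonneg.2 ht.le), smul_eq_mul]
      rw [inv_mul_lt_iff₀ ht]
      linarith
  have hvol : volume (t • K) = ENNReal.ofReal (t ^ 3) * volume K := by
    rw [Measure.addHaar_smul]
    simp only [finrank_euclideanSpace, Fintype.card_fin]
    rw [abs_of_pos (by positivity)]
  have h1 : volume K ≤ volume ({x | t ≤ gauge K x} ∩ K) + ENNReal.ofReal (t ^ 3) * volume K := by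
    calc volume K ≤ volume (({x | t ≤ gauge K x} ∩ K) ∪ (t • K)) := measure_mono hsub
      _ ≤ _ := by
        rw [← hvol]
        exact measure_union_le _ _
  have ht3 : t ^ 3 ≤ 1 := pow_le_one₀ ht.le ht1
  have h2 : ENNReal.ofReal (1 - t ^ 3) * volume K =
      volume K - ENNReal.ofReal (t ^ 3) * volume K := by
    rw [ENNReal.ofReal_sub _ (by positivity), ENNReal.ofReal_one, ENNReal.sub_mul (fun _ _ => hVfin),
      one_mul]
  rw [h2]
  exact tsub_le_iff_right.2 h1

/-- Integral of `1 - t^3` over `(0,1]`. -/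
lemma lintegral_one_sub_cube :
    ∫⁻ t in Ioc (0 : ℝ) 1, ENNReal.ofReal (1 - t ^ 3) = ENNReal.ofReal (3 / 4) := by
  have hint : IntervalIntegrable (fun t : ℝ => 1 - t ^ 3) volume 0 1 :=
    (by fun_prop : Continuous fun t : ℝ => 1 - t ^ 3).intervalIntegrable _ _
  have h1 : ∫ t in (0 : ℝ)..1, (1 - t ^ 3) = 3 / 4 := by
    rw [intervalIntegral.integral_sub (by simp) (by apply Continuous.intervalIntegrable; fun_prop)]
    simp [integral_pow]
    norm_num
  rw [intervalIntegral.intervalIntegral_eq_integral_uIoc] at h1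
  simp only [zero_le_one, if_true, uIoc_of_le, one_smul] at h1
  rw [← h1, MeasureTheory.ofReal_integral_eq_lintegral_ofReal]
  · exact (intervalIntegrable_iff_integrableOn_Ioc_of_le zero_le_one).1 hint
  · filter_upwards [ae_restrict_mem measurableSet_Ioc] with t ht
    have : t ^ 3 ≤ 1 := pow_le_one₀ ht.1.le ht.2
    simp only [Pi.zero_apply]
    linarith

/-- M3: total mass of the density `1 + 2 g`. -/
theorem gauge_mass (K : Set (EuclideanSpace ℝ (Fin 3))) (hK : IsCompact K) (hc : Convex ℝ K)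
    (h0 : K ∈ nhds (0 : EuclideanSpace ℝ (Fin 3))) :
    ENNReal.ofReal (5 / 2) * volume K ≤ ∫⁻ x in K, ENNReal.ofReal (1 + 2 * gauge K x) := by
  have hcont : Continuous (gauge K) := continuous_gauge hc h0
  have hg0 : ∀ x, 0 ≤ gauge K x := gauge_nonneg
  -- layer cake
  have hlc : ∫⁻ x in K, ENNReal.ofReal (gauge K x) =
      ∫⁻ t in Ioi (0 : ℝ), (volume.restrict K) {x | t ≤ gauge K x} :=
    lintegral_eq_lintegral_meas_le (volume.restrict K)
      (Filter.Eventually.of_forall hg0) hcont.measurable.aemeasurable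
  have hlow : ENNReal.ofReal (3 / 4) * volume K ≤ ∫⁻ x in K, ENNReal.ofReal (gauge K x) := by
    rw [hlc, ← lintegral_one_sub_cube]
    have hm : Measurable fun t : ℝ => ENNReal.ofReal (1 - t ^ 3) := by fun_prop
    rw [← lintegral_mul_const _ hm]
    calc ∫⁻ t in Ioc (0 : ℝ) 1, ENNReal.ofReal (1 - t ^ 3) * volume K
        ≤ ∫⁻ t in Ioc (0 : ℝ) 1, (volume.restrict K) {x | t ≤ gauge K x} := by
          apply setLIntegral_mono' measurableSet_Ioc
          intro t ht
          exact layer_bound K hK hc h0 ht.1 ht.2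
      _ ≤ ∫⁻ t in Ioi (0 : ℝ), (volume.restrict K) {x | t ≤ gauge K x} :=
          lintegral_mono_set Ioc_subset_Ioi_self
  have hsplit : ∀ x, ENNReal.ofReal (1 + 2 * gauge K x) =
      1 + 2 * ENNReal.ofReal (gauge K x) := by
    intro x
    rw [ENNReal.ofReal_add zero_le_one (by have := hg0 x; positivity), ENNReal.ofReal_one,
      ENNReal.ofReal_mul zero_le_two]
    norm_num
  simp_rw [hsplit]
  have hm2 : Measurable fun x => 2 * ENNReal.ofReal (gauge K x) :=
    (hcont.measurable.ennreal_ofReal).const_mul _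
  rw [lintegral_add_left measurable_const, lintegral_const_mul _ hcont.measurable.ennreal_ofReal]
  simp only [lintegral_const, Measure.restrict_apply MeasurableSet.univ, univ_inter, one_mul]
  have h52 : ENNReal.ofReal (5 / 2) = 1 + 2 * ENNReal.ofReal (3 / 4) := by
    have : (5 / 2 : ℝ) = 1 + 2 * (3 / 4) := by norm_num
    rw [this, ENNReal.ofReal_add zero_le_one (by norm_num), ENNReal.ofReal_one,
      ENNReal.ofReal_mul zero_le_two]
    norm_num
  rw [h52, add_mul, one_mul, mul_assoc]
  gcongr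

end Vale.Agent.P243s
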