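import Mathlib

open MeasureTheory Set
open scoped ENNReal

namespace Vale.Agent.P243s

/-- M4: supporting functional of a symmetric convex planar set at a point. -/
theorem exists_support (S : Set (ℝ × ℝ)) (hc : Convex ℝ S) (hs : ∀ z ∈ S, -z ∈ S)
    (h0 : S ∈ nhds (0 : ℝ × ℝ)) (y : ℝ × ℝ) :
    ∃ ξ : (ℝ × ℝ) →ₗ[ℝ] ℝ, (∀ z ∈ S, |ξ z| ≤ 1) ∧ ξ y = gauge S y := by
  have habs : Absorbent ℝ S := absorbent_nhds_zero h0
  have hhom : ∀ c : ℝ, 0 < c → ∀ x : ℝ × ℝ, gauge S (c • x) = c * gauge S x := by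
    intro c hc x
    rw [gauge_smul_of_nonneg hc.le, smul_eq_mul]
  have hadd : ∀ x z : ℝ × ℝ, gauge S (x + z) ≤ gauge S x + gauge S z :=
    fun x z => gauge_add_le hc habs x z
  have hone : ∀ z ∈ S, gauge S z ≤ 1 := fun z hz => gauge_le_one_of_mem hz
  have hneg : ∀ z, gauge S (-z) = gauge S z := gauge_neg (fun z hz => hs z hz)
  rcases eq_or_ne y 0 with rfl | hy
  · refine ⟨0, ?_, ?_⟩
    · intro z _
      simp
    · simp [gauge_zero]
  · let p : (ℝ × ℝ) →ₗ.[ℝ] ℝ := LinearPMap.mkSpanSingleton y (gauge S y) hy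
    have hap : ∀ (a : ℝ) (h : a • y ∈ p.domain), p ⟨a • y, h⟩ = a • gauge S y := by
      intro a h
      exact LinearPMap.mkSpanSingleton'_apply y (gauge S y) _ a h
    have hf : ∀ x : p.domain, p x ≤ gauge S (x : ℝ × ℝ) := by
      rintro ⟨x, hx⟩
      obtain ⟨a, rfl⟩ := Submodule.mem_span_singleton.1 hx
      rw [hap a hx, smul_eq_mul]
      rcases lt_or_ge a 0 with ha | ha
      · have h2 : a * gauge S y ≤ 0 :=
          mul_nonpos_of_nonpos_of_nonneg ha.le (gauge_nonneg y)
        exact h2.trans (gauge_nonneg _)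
      · rw [gauge_smul_of_nonneg ha, smul_eq_mul]
    obtain ⟨g, hg, hgle⟩ := exists_extension_of_le_sublinear p (gauge S) hhom hadd hf
    refine ⟨g, ?_, ?_⟩
    · intro z hz
      rw [abs_le]
      constructor
      · have h3 := hgle (-z)
        rw [map_neg, hneg] at h3
        linarith [hone z hz]
      · exact (hgle z).trans (hone z hz)
    · have hmem : y ∈ p.domain := Submodule.mem_span_singleton_self y
      have h4 := hg ⟨y, hmem⟩
      have h5 : p ⟨y, hmem⟩ = gauge S y := by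
        have h6 : (1 : ℝ) • y ∈ p.domain := by rw [one_smul]; exact hmem
        have h7 := hap 1 h6
        simp only [one_smul] at h7
        exact h7
      rw [h5] at h4
      exact h4

end Vale.Agent.P243s
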