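import Vale.Agent.P243s.Level
import Vale.Agent.P243s.Support
import Vale.Agent.P243s.Mass
import Vale.Agent.P243s.Fiber
import Vale.Agent.P243.Frame

open MeasureTheory Set
open scoped ENNReal Pointwise RealInnerProductSpace

namespace Vale.Agent.P243s

open Vale.Agent.P243

variable {K : Set ((ℝ × ℝ) × ℝ)}

lemma chord_neg (hs : ∀ w ∈ K, -w ∈ K) (y : ℝ × ℝ) : chord K (-y) = chord K y := by
  unfold chord
  have : Prod.mk (-y) ⁻¹' K = Neg.neg ⁻¹' (Prod.mk y ⁻¹' K) := by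
    ext z
    simp only [mem_preimage]
    constructor
    · intro h; simpa using hs _ h
    · intro h; simpa using hs _ h
  rw [this, Measure.measure_preimage_neg]

lemma shadow_facts (hK : IsCompact K) (hc : Convex ℝ K) (h0 : K ∈ nhds (0 : (ℝ × ℝ) × ℝ))
    (hs : ∀ w ∈ K, -w ∈ K) :
    IsCompact (Prod.fst '' K) ∧ Convex ℝ (Prod.fst '' K) ∧ (∀ z ∈ Prod.fst '' K, -z ∈ Prod.fst '' K)
      ∧ Prod.fst '' K ∈ nhds (0 : ℝ × ℝ) := by
  refine ⟨hK.image continuous_fst, convex_shadow hc, ?_, isOpenMap_fst.image_mem_nhds h0⟩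
  rintro _ ⟨p, hp, rfl⟩
  exact ⟨-p, hs p hp, rfl⟩

/-- The mass of a fibre times the area of the shadow is at most `6 |K|`. -/
lemma fiber_times_shadow (hK : IsCompact K) (hc : Convex ℝ K) (h0 : K ∈ nhds (0 : (ℝ × ℝ) × ℝ))
    (hs : ∀ w ∈ K, -w ∈ K) {y : ℝ × ℝ} (hy : y ∈ Prod.fst '' K) :
    (∫⁻ z in Prod.mk y ⁻¹' K, ENNReal.ofReal (1 + 2 * gauge K (y, z))) * volume (Prod.fst '' K)
      ≤ ENNReal.ofReal 6 * volume K := by
  obtain ⟨τ, hτ0, hτ, hP⟩ := fiber_mass hK hc h0 hy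
  obtain ⟨hSc, hSconv, hSsym, hS0⟩ := shadow_facts hK hc h0 hs
  obtain ⟨ξ, hξ1, hξ2⟩ := exists_support _ hSconv hSsym hS0 y
  have h1 := level_bound _ hSc hSconv hSsym (chord K) (chord_concave hc hK.isBounded)
    (fun z _ => chord_nonneg K z) (chord_measurable hK.isClosed.measurableSet) y hy
    (chord_neg hs y) ξ hξ1 τ hτ0 (by rw [hξ2]; exact hτ)
  rw [← volume_eq_shadow hK] at h1
  have e : ENNReal.ofReal (chord K y * (2 + τ))
      = ENNReal.ofReal 6 * ENNReal.ofReal (chord K y * (2 + τ) / 6) := by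
    rw [← ENNReal.ofReal_mul (by norm_num)]
    congr 1
    ring
  calc _ ≤ ENNReal.ofReal (chord K y * (2 + τ)) * volume (Prod.fst '' K) := by gcongr
    _ = ENNReal.ofReal 6 *
        (ENNReal.ofReal (chord K y * (2 + τ) / 6) * volume (Prod.fst '' K)) := by
        rw [e, mul_assoc]
    _ ≤ _ := by gcongr

/-- The mass of the part over a measurable planar set. -/
theorem mass_over (hK : IsCompact K) (hc : Convex ℝ K) (h0 : K ∈ nhds (0 : (ℝ × ℝ) × ℝ))
    (hs : ∀ w ∈ K, -w ∈ K) {B : Set (ℝ × ℝ)} (hB : MeasurableSet B) :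
    ∫⁻ w in K ∩ Prod.fst ⁻¹' B, ENNReal.ofReal (1 + 2 * gauge K w)
      ≤ ENNReal.ofReal 6 * volume K * (volume B / volume (Prod.fst '' K)) := by
  obtain ⟨hSc, hSconv, hSsym, hS0⟩ := shadow_facts hK hc h0 hs
  have hKm : MeasurableSet K := hK.isClosed.measurableSet
  have hAm : MeasurableSet (K ∩ Prod.fst ⁻¹' B) := hKm.inter (measurable_fst hB)
  have hgc : Continuous (gauge K) := continuous_gauge hc h0
  let F : (ℝ × ℝ) × ℝ → ℝ≥0∞ := fun w => ENNReal.ofReal (1 + 2 * gauge K w)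
  have hFm : Measurable F := ((hgc.measurable.const_mul 2).const_add 1).ennreal_ofReal
  have hSpos : volume (Prod.fst '' K) ≠ 0 := (Measure.measure_pos_of_mem_nhds _ hS0).ne'
  have hStop : volume (Prod.fst '' K) ≠ ⊤ := hSc.measure_lt_top.ne
  set C := ENNReal.ofReal 6 * volume K / volume (Prod.fst '' K) with hC
  have hpt : ∀ y, ∫⁻ z, (K ∩ Prod.fst ⁻¹' B).indicator F (y, z) ≤ B.indicator (fun _ => C) y := by
    intro y
    by_cases hyB : y ∈ B
    · rw [indicator_of_mem hyB]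
      by_cases hyS : y ∈ Prod.fst '' K
      · have e : (fun z => (K ∩ Prod.fst ⁻¹' B).indicator F (y, z))
            = (Prod.mk y ⁻¹' K).indicator (fun z => F (y, z)) := by
          funext z
          by_cases hz : (y, z) ∈ K
          · rw [indicator_of_mem (show (y, z) ∈ K ∩ Prod.fst ⁻¹' B from ⟨hz, hyB⟩),
              indicator_of_mem (show z ∈ Prod.mk y ⁻¹' K from hz)]
          · rw [indicator_of_notMem (fun h => hz h.1),
              indicator_of_notMem (show z ∉ Prod.mk y ⁻¹' K from hz)]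
        rw [e, lintegral_indicator (hKm.preimage (measurable_prodMk_left))]
        rw [hC, ENNReal.le_div_iff_mul_le (Or.inl hSpos) (Or.inl hStop)]
        exact fiber_times_shadow hK hc h0 hs hyS
      · have e : (fun z => (K ∩ Prod.fst ⁻¹' B).indicator F (y, z)) = fun _ => 0 := by
          funext z
          refine indicator_of_notMem (fun h => hyS ⟨(y, z), h.1, rfl⟩) _
        rw [e]; simp
    · rw [indicator_of_notMem hyB]
      have e : (fun z => (K ∩ Prod.fst ⁻¹' B).indicator F (y, z)) = fun _ => 0 := by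
        funext z
        exact indicator_of_notMem (fun h => hyB h.2) _
      rw [e]; simp
  rw [← lintegral_indicator hAm, Measure.volume_eq_prod, lintegral_prod _
    (hFm.indicator hAm).aemeasurable]
  calc ∫⁻ y, ∫⁻ z, (K ∩ Prod.fst ⁻¹' B).indicator F (y, z)
      ≤ ∫⁻ y, B.indicator (fun _ => C) y := lintegral_mono hpt
    _ = C * volume B := lintegral_indicator_const hB C
    _ = _ := by
        rw [← Measure.volume_eq_prod]
        simp only [hC, div_eq_mul_inv]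
        ring

/-- The gauge of the coordinate image. -/
lemma gauge_coord {f e u : E3} (hF : Frame f e u) (K : Set E3) (x : E3) :
    gauge (coord f e u '' K) (coord f e u x) = gauge K x := by
  obtain ⟨Φ, _, hc⟩ := hF.exists_equiv
  have hinj : Function.Injective (coord f e u) := by
    have e1 : coord f e u = Φ := by
      funext x; rw [hc]
    rw [e1]; exact Φ.injective
  have hsmul : ∀ (r : ℝ) (x : E3), coord f e u (r • x) = r • coord f e u x := by
    intro r x
    rw [← coordL_apply, ← coordL_apply, map_smul]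
  unfold gauge
  congr 1
  ext r
  simp only [mem_ofPred_eq]
  constructor
  · rintro ⟨hr, hm⟩
    refine ⟨hr, ?_⟩
    obtain ⟨_, ⟨x', hx', rfl⟩, h2⟩ := hm
    have : r • x' = x := by
      apply hinj
      rw [hsmul]
      exact h2
    exact ⟨x', hx', this⟩
  · rintro ⟨hr, hm⟩
    refine ⟨hr, ?_⟩
    obtain ⟨x', hx', rfl⟩ := hm
    exact ⟨coord f e u x', ⟨x', hx', rfl⟩, (hsmul r x').symm⟩

variable {K₀ : Set E3}

/-- One frame. -/
theorem frame_bound (hK : IsCompact K₀) (hc : Convex ℝ K₀) (h0 : K₀ ∈ nhds (0 : E3))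
    (hs : ∀ x ∈ K₀, -x ∈ K₀) {f e u : E3} (hF : Frame f e u) {B : Set (ℝ × ℝ)}
    (hB : MeasurableSet B) :
    ∫⁻ x in K₀ ∩ (fun x => ((⟪f, x⟫, ⟪e, x⟫) : ℝ × ℝ)) ⁻¹' B, ENNReal.ofReal (1 + 2 * gauge K₀ x)
      ≤ ENNReal.ofReal 6 * volume K₀ *
        (volume B / volume ((fun x => ((⟪f, x⟫, ⟪e, x⟫) : ℝ × ℝ)) '' K₀)) := by
  obtain ⟨Φ, hΦ, hcΦ⟩ := hF.exists_equiv
  have hco : coord f e u = Φ := by
    funext x; rw [hcΦ]
  set K' := coord f e u '' K₀ with hK'
  have hK'c : IsCompact K' := isCompact_coord_image hK f e u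
  have hK'conv : Convex ℝ K' := convex_coord_image hc f e u
  have hK'0 : K' ∈ nhds (0 : (ℝ × ℝ) × ℝ) := by
    have hsurj : Function.Surjective (coordL f e u) := by
      have : (coordL f e u : E3 → (ℝ × ℝ) × ℝ) = Φ := by
        funext x; rw [coordL_apply, hcΦ]
      rw [this]; exact Φ.surjective
    have hopen : IsOpenMap (coordL f e u) := (coordL f e u).isOpenMap hsurj
    have := hopen.image_mem_nhds h0
    rw [map_zero, (show (⇑(coordL f e u) : E3 → (ℝ × ℝ) × ℝ) = coord f e u from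
      funext (coordL_apply f e u))] at this
    exact this
  have hK's : ∀ w ∈ K', -w ∈ K' := by
    rintro _ ⟨x, hx, rfl⟩
    refine ⟨-x, hs x hx, ?_⟩
    rw [← coordL_apply, ← coordL_apply, map_neg]
  have hm := mass_over hK'c hK'conv hK'0 hK's hB
  have hvol : volume K' = volume K₀ := hF.volume_image K₀
  have hshadow : Prod.fst '' K' = (fun x => ((⟪f, x⟫, ⟪e, x⟫) : ℝ × ℝ)) '' K₀ := by
    rw [hK', image_image]
    rfl
  rw [hvol, hshadow] at hm
  refine le_trans (le_of_eq ?_) hm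
  have hpre : K₀ ∩ (fun x => ((⟪f, x⟫, ⟪e, x⟫) : ℝ × ℝ)) ⁻¹' B = Φ ⁻¹' (K' ∩ Prod.fst ⁻¹' B) := by
    ext x
    simp only [mem_inter_iff, mem_preimage, hcΦ]
    constructor
    · rintro ⟨h1, h2⟩
      exact ⟨⟨x, h1, rfl⟩, h2⟩
    · rintro ⟨⟨x', hx', h⟩, h2⟩
      have : x' = x := by
        apply Φ.injective
        rw [hcΦ, hcΦ, h]
      exact ⟨this ▸ hx', h2⟩
  rw [hpre, ← hΦ.setLIntegral_comp_preimage_emb Φ.measurableEmbedding]
  apply lintegral_congr
  intro x
  rw [← hco, gauge_coord hF]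

/-- The main theorem. -/
theorem five_twelfths (hK : IsCompact K₀) (hc : Convex ℝ K₀) (hint : (interior K₀).Nonempty)
    (hs : ∀ x ∈ K₀, -x ∈ K₀) {ι : Type*} [Fintype ι]
    (f e u : ι → E3) (hF : ∀ i, Frame (f i) (e i) (u i)) (B : ι → Set (ℝ × ℝ))
    (hcov : ∀ x ∈ K₀, ∃ i, (⟪f i, x⟫, ⟪e i, x⟫) ∈ B i) :
    ENNReal.ofReal (5 / 12) ≤
      ∑ i, volume (B i) / volume ((fun x => ((⟪f i, x⟫, ⟪e i, x⟫) : ℝ × ℝ)) '' K₀) := by
  -- the origin is interior
  have h0 : K₀ ∈ nhds (0 : E3) := by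
    obtain ⟨x, hx⟩ := hint
    have hnx : -x ∈ interior K₀ := by
      have hop : IsOpen (Neg.neg ⁻¹' interior K₀ : Set E3) := isOpen_interior.preimage continuous_neg
      have hsub : (Neg.neg ⁻¹' interior K₀ : Set E3) ⊆ K₀ := by
        intro z hz
        have := hs _ (interior_subset hz)
        simpa using this
      exact interior_maximal hsub hop (by simpa using hx)
    have hmid := hc.interior hx hnx (a := 1 / 2) (b := 1 / 2) (by norm_num) (by norm_num)
      (by norm_num)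
    have e0 : (1 / 2 : ℝ) • x + (1 / 2 : ℝ) • (-x) = 0 := by
      rw [smul_neg]; simp
    rw [e0] at hmid
    exact mem_interior_iff_mem_nhds.1 hmid
  have hVpos : volume K₀ ≠ 0 := (Measure.measure_pos_of_mem_nhds _ h0).ne'
  have hVtop : volume K₀ ≠ ⊤ := hK.measure_lt_top.ne
  set R := ∑ i, volume (B i) / volume ((fun x => ((⟪f i, x⟫, ⟪e i, x⟫) : ℝ × ℝ)) '' K₀) with hR
  let B' : ι → Set (ℝ × ℝ) := fun i => toMeasurable volume (B i)
  let A : ι → Set E3 := fun i => K₀ ∩ (fun x => ((⟪f i, x⟫, ⟪e i, x⟫) : ℝ × ℝ)) ⁻¹' B' i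
  have hsub : K₀ ⊆ ⋃ i, A i := by
    intro x hx
    obtain ⟨i, hi⟩ := hcov x hx
    exact mem_iUnion.2 ⟨i, hx, subset_toMeasurable _ _ hi⟩
  have h1 := gauge_mass K₀ hK hc h0
  have h2 : ∫⁻ x in K₀, ENNReal.ofReal (1 + 2 * gauge K₀ x)
      ≤ ∑ i, ∫⁻ x in A i, ENNReal.ofReal (1 + 2 * gauge K₀ x) := by
    calc _ ≤ ∫⁻ x in ⋃ i, A i, ENNReal.ofReal (1 + 2 * gauge K₀ x) := lintegral_mono_set hsub
      _ ≤ ∑' i, ∫⁻ x in A i, ENNReal.ofReal (1 + 2 * gauge K₀ x) := lintegral_iUnion_le _ _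
      _ = _ := tsum_fintype _
  have h3 : ∑ i, ∫⁻ x in A i, ENNReal.ofReal (1 + 2 * gauge K₀ x)
      ≤ ENNReal.ofReal 6 * volume K₀ * R := by
    rw [hR, Finset.mul_sum]
    refine Finset.sum_le_sum fun i _ => ?_
    have := frame_bound hK hc h0 hs (hF i) (B := B' i) (measurableSet_toMeasurable _ _)
    rwa [measure_toMeasurable] at this
  have h4 : ENNReal.ofReal (5 / 2) * volume K₀ ≤ ENNReal.ofReal 6 * volume K₀ * R :=
    h1.trans (h2.trans h3)
  have h5 : ENNReal.ofReal (5 / 12) * ENNReal.ofReal 6 = ENNReal.ofReal (5 / 2) := by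
    rw [← ENNReal.ofReal_mul (by norm_num)]
    norm_num
  have h6 : ENNReal.ofReal (5 / 2) ≤ ENNReal.ofReal 6 * R := by
    have e1 : ENNReal.ofReal 6 * volume K₀ * R = ENNReal.ofReal 6 * R * volume K₀ := by ring
    rw [e1] at h4
    exact (ENNReal.mul_le_mul_iff_left hVpos hVtop).1 h4
  rw [← h5, mul_comm] at h6
  have h60 : ENNReal.ofReal 6 ≠ 0 := by simp
  have h6t : ENNReal.ofReal 6 ≠ ⊤ := ENNReal.ofReal_ne_top
  exact (ENNReal.mul_le_mul_iff_right h60 h6t).1 h6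

end Vale.Agent.P243s
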