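import Mathlib

open MeasureTheory Set
open scoped ENNReal

namespace Vale.Agent.P243s

/-- The linear map `T_t z = (1-t) z + t ξ(z) y`. -/
noncomputable def shear (ξ : (ℝ × ℝ) →ₗ[ℝ] ℝ) (y : ℝ × ℝ) (t : ℝ) : (ℝ × ℝ) →ₗ[ℝ] (ℝ × ℝ) :=
  (1 - t) • LinearMap.id + t • (ξ.smulRight y)

lemma shear_apply (ξ : (ℝ × ℝ) →ₗ[ℝ] ℝ) (y : ℝ × ℝ) (t : ℝ) (z : ℝ × ℝ) :
    shear ξ y t z = (1 - t) • z + t • (ξ z • y) := by
  simp [shear]

lemma xi_expand (ξ : (ℝ × ℝ) →ₗ[ℝ] ℝ) (y : ℝ × ℝ) :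
    ξ y = y.1 * ξ (1, 0) + y.2 * ξ (0, 1) := by
  have h : y = y.1 • ((1 : ℝ), (0 : ℝ)) + y.2 • ((0 : ℝ), (1 : ℝ)) := by
    ext <;> simp
  have h2 := congrArg ξ h
  rw [map_add, map_smul, map_smul] at h2
  simpa using h2

lemma det_shear (ξ : (ℝ × ℝ) →ₗ[ℝ] ℝ) (y : ℝ × ℝ) (t : ℝ) :
    LinearMap.det (shear ξ y t) = (1 - t) ^ 2 + t * (1 - t) * ξ y := by
  rw [← LinearMap.det_toMatrix (Module.Basis.finTwoProd ℝ), Matrix.det_fin_two]
  simp only [LinearMap.toMatrix_apply, Module.Basis.finTwoProd_zero, Module.Basis.finTwoProd_one,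
    shear_apply, Module.Basis.coe_finTwoProd_repr]
  rw [xi_expand ξ y]
  simp
  ring

/-- Antiderivative computation. -/
lemma integral_phi {l c : ℝ} (hl : 0 < l) :
    ∫ s in (0 : ℝ)..l, ((1 - s / l) ^ 2 + (s / l) * (1 - s / l) * c) = l * (2 + c) / 6 := by
  have hne : l ≠ 0 := hl.ne'
  let F : ℝ → ℝ := fun s => s + ((c - 2) / l) * (s ^ 2 / 2) + ((1 - c) / l ^ 2) * (s ^ 3 / 3)
  have hF : ∀ s ∈ uIcc (0 : ℝ) l,
      HasDerivAt F ((1 - s / l) ^ 2 + (s / l) * (1 - s / l) * c) s := by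
    intro s _
    have h1 := hasDerivAt_id s
    have h2 := (hasDerivAt_pow 2 s).div_const 2
    have h3 := (hasDerivAt_pow 3 s).div_const 3
    have h := (h1.add (h2.const_mul ((c - 2) / l))).add (h3.const_mul ((1 - c) / l ^ 2))
    refine HasDerivAt.congr_deriv (f := F) h ?_
    norm_num
    field_simp
    ring
  rw [intervalIntegral.integral_eq_sub_of_hasDerivAt hF
    (Continuous.intervalIntegrable (by fun_prop (disch := assumption)) _ _)]
  simp only [F]
  field_simp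
  ring

theorem level_bound (S : Set (ℝ × ℝ)) (hS : IsCompact S) (hc : Convex ℝ S) (hs : ∀ z ∈ S, -z ∈ S)
    (L : ℝ × ℝ → ℝ) (hL : ConcaveOn ℝ S L) (hL0 : ∀ z ∈ S, 0 ≤ L z) (hLm : Measurable L)
    (y : ℝ × ℝ) (hy : y ∈ S) (hsym : L (-y) = L y)
    (ξ : (ℝ × ℝ) →ₗ[ℝ] ℝ) (hξ : ∀ z ∈ S, |ξ z| ≤ 1) (c : ℝ) (hc0 : 0 ≤ c) (hcξ : c ≤ ξ y) :
    ENNReal.ofReal (L y * (2 + c) / 6) * volume S ≤ ∫⁻ z in S, ENNReal.ofReal (L z) := by
  have hSm : MeasurableSet S := hS.isClosed.measurableSet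
  have hl0 : 0 ≤ L y := hL0 y hy
  rcases hl0.eq_or_lt with hl | hlpos
  · rw [← hl]; simp
  set l := L y with hldef
  -- the images lie in the superlevel sets
  have hinc : ∀ t : ℝ, 0 ≤ t → t ≤ 1 → ∀ z ∈ S, shear ξ y t z ∈ S ∧ t * l ≤ L (shear ξ y t z) := by
    intro t ht0 ht1 z hz
    have hz' := abs_le.1 (hξ z hz)
    set s := ξ z with hsdef
    have hw : s • y = ((1 + s) / 2) • y + ((1 - s) / 2) • (-y) := by
      ext <;> simp <;> ring
    have hA : 0 ≤ (1 + s) / 2 := by linarith [hz'.1]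
    have hB : 0 ≤ (1 - s) / 2 := by linarith [hz'.2]
    have hAB : (1 + s) / 2 + (1 - s) / 2 = 1 := by ring
    have hwS : s • y ∈ S := by
      rw [hw]; exact hc hy (hs y hy) hA hB hAB
    have hwL : l ≤ L (s • y) := by
      have := hL.2 hy (hs y hy) hA hB hAB
      rw [← hw, hsym] at this
      simp only [smul_eq_mul] at this
      calc l = (1 + s) / 2 * l + (1 - s) / 2 * l := by ring
        _ ≤ _ := this
    rw [shear_apply]
    refine ⟨hc hz hwS (by linarith) ht0 (by ring), ?_⟩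
    have := hL.2 hz hwS (show 0 ≤ 1 - t by linarith) ht0 (by ring)
    simp only [smul_eq_mul] at this
    have h1 := mul_nonneg (show 0 ≤ 1 - t by linarith) (hL0 z hz)
    have h2 := mul_le_mul_of_nonneg_left hwL ht0
    linarith
  -- lower bound of the measures of the superlevel sets
  have hdet : 0 ≤ ξ y := hc0.trans hcξ
  have hvol : ∀ t : ℝ, 0 ≤ t → t ≤ 1 →
      ENNReal.ofReal ((1 - t) ^ 2 + t * (1 - t) * c) * volume S ≤
        (volume.restrict S) {z | t * l ≤ L z} := by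
    intro t ht0 ht1
    have h1t : 0 ≤ 1 - t := by linarith
    calc ENNReal.ofReal ((1 - t) ^ 2 + t * (1 - t) * c) * volume S
        ≤ ENNReal.ofReal |LinearMap.det (shear ξ y t)| * volume S := by
          gcongr
          rw [det_shear]
          refine le_trans ?_ (le_abs_self _)
          have := mul_le_mul_of_nonneg_left hcξ (mul_nonneg ht0 h1t)
          linarith
      _ = volume (shear ξ y t '' S) := (Measure.addHaar_image_linearMap _ _ _).symm
      _ ≤ volume ({z | t * l ≤ L z} ∩ S) := by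
          apply measure_mono
          rintro _ ⟨z, hz, rfl⟩
          exact ⟨(hinc t ht0 ht1 z hz).2, (hinc t ht0 ht1 z hz).1⟩
      _ ≤ _ := Measure.le_restrict_apply _ _
  -- layer cake
  rw [lintegral_eq_lintegral_meas_le (volume.restrict S)
    ((ae_restrict_iff' hSm).2 (Filter.Eventually.of_forall hL0)) hLm.aemeasurable]
  let φ : ℝ → ℝ := fun s => (1 - s / l) ^ 2 + (s / l) * (1 - s / l) * c
  have hφc : Continuous φ := by
    simp only [φ]; fun_prop (disch := exact hlpos.ne')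
  have hφ0 : ∀ s ∈ Ioc 0 l, 0 ≤ φ s := by
    intro s hs'
    have h1 : 0 ≤ s / l := div_nonneg hs'.1.le hl0
    have h2 : s / l ≤ 1 := (div_le_one hlpos).2 hs'.2
    have h3 : 0 ≤ 1 - s / l := by linarith
    simp only [φ]; positivity
  have hint : ENNReal.ofReal (l * (2 + c) / 6) = ∫⁻ s in Ioc 0 l, ENNReal.ofReal (φ s) := by
    rw [← integral_phi (c := c) hlpos, intervalIntegral.integral_of_le hl0]
    exact ofReal_integral_eq_lintegral_ofReal
      ((hφc.integrableOn_Icc (a := 0) (b := l)).mono_set Ioc_subset_Icc_self)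
      ((ae_restrict_iff' measurableSet_Ioc).2 (Filter.Eventually.of_forall hφ0))
  rw [hint, ← lintegral_mul_const _ hφc.measurable.ennreal_ofReal]
  calc ∫⁻ s in Ioc 0 l, ENNReal.ofReal (φ s) * volume S
      ≤ ∫⁻ s in Ioc 0 l, (volume.restrict S) {z | s ≤ L z} := by
        refine setLIntegral_mono' measurableSet_Ioc ?_
        intro s hs'
        have h1 : 0 ≤ s / l := div_nonneg hs'.1.le hl0
        have h2 : s / l ≤ 1 := (div_le_one hlpos).2 hs'.2
        have h3 := hvol (s / l) h1 h2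
        have h4 : s / l * l = s := by field_simp
        rwa [h4] at h3
    _ ≤ ∫⁻ s in Ioi 0, (volume.restrict S) {z | s ≤ L z} :=
        lintegral_mono_set (fun s hs' => hs'.1)

end Vale.Agent.P243s
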